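import Vale.Agent.P163.Main
import Vale.Agent.P163.StateGen
import Vale.Agent.P163.IsiMain

/-!
# P163: the O(n) model at `β` is dominated by the XY model at `β' ≥ β` and by the Ising model at
`β' / 2`, on every finite graph and for infinite-volume states on `Z^2`
-/

namespace Vale.Agent.Results.P163.SpinChain

open MeasureTheory Vale.Agent.P163

/-- Euclidean distance of two points of `Z^2` -/
noncomputable def edist (x y : ℤ × ℤ) : ℝ :=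
  Real.sqrt (((x.1 : ℝ) - y.1) ^ 2 + ((x.2 : ℝ) - y.2) ^ 2)

theorem result :
    (∀ (V : Type) [Fintype V] (n : ℕ) (J J' : V → V → ℝ), 2 ≤ n → (∀ a b, 0 ≤ J a b) →
      (∀ a b, J a b ≤ J' a b) → ∀ x y : V,
        0 ≤ corr n J x y ∧ corr n J x y ≤ corr 2 J' x y ∧
          corr 2 J' x y ≤ corr 1 (fun a b => J' a b / 2) x y) ∧
    (∀ (n : ℕ) (β β' : ℝ) (μ : Measure (ℤ × ℤ → S n)), 2 ≤ n → 0 ≤ β → β ≤ β' →
      IsState n β μ → ∃ (μ' : Measure (ℤ × ℤ → S 2)) (μ'' : Measure (ℤ × ℤ → S 1)),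
        IsState 2 β' μ' ∧ IsState 1 (β' / 2) μ'' ∧
        ∀ x y, 0 ≤ tp μ x y ∧ tp μ x y ≤ tp μ' x y ∧ tp μ' x y ≤ tp μ'' x y) ∧
    (∀ β' C m : ℝ,
      ((∀ μ' : Measure (ℤ × ℤ → S 2), IsState 2 β' μ' →
        ∀ x y, tp μ' x y ≤ C * Real.exp (-m * edist x y)) ∨
       (∀ μ'' : Measure (ℤ × ℤ → S 1), IsState 1 (β' / 2) μ'' →
        ∀ x y, tp μ'' x y ≤ C * Real.exp (-m * edist x y))) →
      ∀ (n : ℕ) (β : ℝ) (μ : Measure (ℤ × ℤ → S n)), 2 ≤ n → 0 ≤ β → β ≤ β' →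
        IsState n β μ → ∀ x y, tp μ x y ≤ C * Real.exp (-m * edist x y)) := by
  have hI : ∀ (V : Type) [Fintype V] (J : V → V → ℝ), (∀ a b, 0 ≤ J a b) → ∀ x y : V,
      corr 2 J x y ≤ corr 1 (fun a b => J a b / 2) x y := by
    intro V _ J h0 x y
    have hX := XZ_pos J
    have hZ := Zn_pos 1 one_ne_zero (fun a b => J a b / 2)
    have h := isi J h0 x y
    unfold corr ev
    rw [two_num, two_den, div_le_div_iff₀ hX hZ, mul_comm _ (XZ J)]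
    exact h
  have h1 : ∀ (V : Type) [Fintype V] (n : ℕ) (J J' : V → V → ℝ), 2 ≤ n → (∀ a b, 0 ≤ J a b) →
      (∀ a b, J a b ≤ J' a b) → ∀ x y : V,
        0 ≤ corr n J x y ∧ corr n J x y ≤ corr 2 J' x y ∧
          corr 2 J' x y ≤ corr 1 (fun a b => J' a b / 2) x y := by
    intro V _ n J J' hn h0 h x y
    obtain ⟨k, rfl⟩ : ∃ k, n = k + 2 := ⟨n - 2, by omega⟩
    have := compare k J J' h0 h x y
    exact ⟨this.1, this.2, hI V J' (fun a b => (h0 a b).trans (h a b)) x y⟩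
  have hJ : ∀ (β : ℝ), 0 ≤ β → ∀ (v : Vol) (a b : v.V), 0 ≤ v.J β a b := by
    intro β hβ v a b
    unfold Vol.J
    split_ifs <;> linarith
  have h2 : ∀ (n : ℕ) (β β' : ℝ) (μ : Measure (ℤ × ℤ → S n)), 2 ≤ n → 0 ≤ β → β ≤ β' →
      IsState n β μ → ∃ (μ' : Measure (ℤ × ℤ → S 2)) (μ'' : Measure (ℤ × ℤ → S 1)),
        IsState 2 β' μ' ∧ IsState 1 (β' / 2) μ'' ∧
        ∀ x y, 0 ≤ tp μ x y ∧ tp μ x y ≤ tp μ' x y ∧ tp μ' x y ≤ tp μ'' x y := by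
    intro n β β' μ hn h0 h hμ
    obtain ⟨k, rfl⟩ : ∃ k, n = k + 2 := ⟨n - 2, by omega⟩
    obtain ⟨μ', hμ', hc⟩ :=
      states_compare (fun V _ k J J' h0 h x y => compare k J J' h0 h x y) k β β' h0 h μ hμ
    obtain ⟨μ'', hμ'', hc'⟩ := states_gen 2 1 one_ne_zero β' (β' / 2)
      (fun v x y => by
        rw [← J_half]
        exact hI v.V (v.J β') (hJ β' (h0.trans h) v) x y) μ' hμ'
    exact ⟨μ', μ'', hμ', hμ'', fun x y => ⟨(hc x y).1, (hc x y).2, hc' x y⟩⟩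
  refine ⟨h1, h2, ?_⟩
  intro β' C m hd n β μ hn h0 h hμ x y
  obtain ⟨μ', μ'', hμ', hμ'', hc⟩ := h2 n β β' μ hn h0 h hμ
  rcases hd with hd | hd
  · exact (hc x y).2.1.trans (hd μ' hμ' x y)
  · exact ((hc x y).2.1.trans (hc x y).2.2).trans (hd μ'' hμ'' x y)

end Vale.Agent.Results.P163.SpinChain
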