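import Vale.Agent.P163.Main

/-!
# P163: the O(n) model is dominated by the XY model, on every finite graph and on `Z^2`
-/

namespace Vale.Agent.Results.P163.SpinComparison

open MeasureTheory Vale.Agent.P163

/-- Euclidean distance of two points of `Z^2` -/
noncomputable def edist (x y : ℤ × ℤ) : ℝ :=
  Real.sqrt (((x.1 : ℝ) - y.1) ^ 2 + ((x.2 : ℝ) - y.2) ^ 2)

theorem result :
    (∀ (V : Type) [Fintype V] (n : ℕ) (J J' : V → V → ℝ), 2 ≤ n → (∀ a b, 0 ≤ J a b) →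
      (∀ a b, J a b ≤ J' a b) →
      ∀ x y : V, 0 ≤ corr n J x y ∧ corr n J x y ≤ corr 2 J' x y) ∧
    (∀ (n : ℕ) (β β' : ℝ) (μ : Measure (ℤ × ℤ → S n)), 2 ≤ n → 0 ≤ β → β ≤ β' →
      IsState n β μ → ∃ μ' : Measure (ℤ × ℤ → S 2), IsState 2 β' μ' ∧
        ∀ x y, 0 ≤ tp μ x y ∧ tp μ x y ≤ tp μ' x y) ∧
    (∀ β' C m : ℝ,
      (∀ μ' : Measure (ℤ × ℤ → S 2), IsState 2 β' μ' →
        ∀ x y, tp μ' x y ≤ C * Real.exp (-m * edist x y)) →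
      ∀ (n : ℕ) (β : ℝ) (μ : Measure (ℤ × ℤ → S n)), 2 ≤ n → 0 ≤ β → β ≤ β' →
        IsState n β μ → ∀ x y, tp μ x y ≤ C * Real.exp (-m * edist x y)) := by
  have h1 : ∀ (V : Type) [Fintype V] (n : ℕ) (J J' : V → V → ℝ), 2 ≤ n → (∀ a b, 0 ≤ J a b) →
      (∀ a b, J a b ≤ J' a b) →
      ∀ x y : V, 0 ≤ corr n J x y ∧ corr n J x y ≤ corr 2 J' x y := by
    intro V _ n J J' hn h0 h x y
    obtain ⟨k, rfl⟩ : ∃ k, n = k + 2 := ⟨n - 2, by omega⟩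
    exact compare k J J' h0 h x y
  have h2 : ∀ (n : ℕ) (β β' : ℝ) (μ : Measure (ℤ × ℤ → S n)), 2 ≤ n → 0 ≤ β → β ≤ β' →
      IsState n β μ → ∃ μ' : Measure (ℤ × ℤ → S 2), IsState 2 β' μ' ∧
        ∀ x y, 0 ≤ tp μ x y ∧ tp μ x y ≤ tp μ' x y := by
    intro n β β' μ hn h0 h hμ
    obtain ⟨k, rfl⟩ : ∃ k, n = k + 2 := ⟨n - 2, by omega⟩
    exact states_compare (fun V _ k J J' h0 h x y => compare k J J' h0 h x y) k β β' h0 h μ hμ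
  refine ⟨h1, h2, ?_⟩
  intro β' C m hd n β μ hn h0 h hμ x y
  obtain ⟨μ', hμ', hc⟩ := h2 n β β' μ hn h0 h hμ
  exact (hc x y).2.trans (hd μ' hμ' x y)

end Vale.Agent.Results.P163.SpinComparison
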